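import Mathlib
import Vale.Agent.P170.Main

open Vale.Agent.P170 in
/-- Structure of every sharp threshold sequence `r` of random `k`-SAT:
(A) approximate min-superadditivity, (B) no fast increase, and the resulting monotonicity across
scales: `r N ≥ r n - ε` for all `N` in `[T n, J n]`, `J` arbitrary, `n` large. -/
theorem Vale.Agent.Results.P170.ScaleMonotone.result
    (k : ℕ) (hk : 2 ≤ k) (r : ℕ → ℝ) (hr : IsThresholdSeq k r) :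
    (∀ ε : ℝ, 0 < ε → ∃ n0 : ℕ, ∀ n1 ≥ n0, ∀ n2 ≥ n0, min (r n1) (r n2) - ε ≤ r (n1 + n2)) ∧
    (∀ ε : ℝ, 0 < ε → ∃ δ : ℝ, 0 < δ ∧ ∃ n0 : ℕ, ∀ n ≥ n0, ∀ d : ℕ, (d : ℝ) ≤ δ * n →
      r (n + d) - ε ≤ r n) ∧
    (∀ ε : ℝ, 0 < ε → ∃ T : ℕ, ∀ J : ℕ, ∃ n0 : ℕ, ∀ n ≥ n0, ∀ N : ℕ, T * n ≤ N → N ≤ J * n →
      r n - ε ≤ r N) :=
  ⟨fun _ hε => propA (by omega) hr hε, fun _ hε => propB (by omega) hr hε,
    scaleMono_of_thresholdSeq (by omega) hr⟩
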