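import Mathlib
import Vale.Agent.P170.Union
import Vale.Agent.P170.Num3
import Vale.Agent.P170.Num4
import Vale.Agent.P170.Num5

open Vale.Agent.P170 in
/-- Random `k`-SAT, all results in one statement.

(I) For `k = 3, 4, 5` the formula with `⌊c n⌋` clauses is unsatisfiable with probability tending to
one as soon as `c ≥ u k`, where `u 3 = 4.2854`, `u 4 = 9.946`, `u 5 = 21.126`; hence every sharp
threshold sequence is eventually at most `u k + ε`, and a limiting threshold is at most `u k`.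

(II) For every `k ≥ 2`, every sharp threshold sequence `r` (Friedgut) is approximately
min-superadditive (A), cannot increase quickly (B), is approximately nondecreasing from scale `n` to
every scale in `[T n, J n]` (C), and `α > 0` is a limiting threshold if and only if `r (ν j) → α`
along one (equivalently every) strictly increasing sequence `ν` with bounded ratios (D). -/
theorem Vale.Agent.Results.P170.StructureAndBounds.result :
    (∀ k : ℕ, ∀ u : ℝ,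
      (k = 3 ∧ u = 42854 / 10000 ∨ k = 4 ∧ u = 9946 / 1000 ∨ k = 5 ∧ u = 21126 / 1000) →
      (∀ c : ℝ, u ≤ c →
        Filter.Tendsto (fun n : ℕ => satProb k n ⌊c * n⌋₊) Filter.atTop (nhds 0)) ∧
      (∀ r : ℕ → ℝ, IsThresholdSeq k r → ∀ ε : ℝ, 0 < ε →
        ∀ᶠ n in Filter.atTop, r n ≤ u + ε) ∧
      (∀ α : ℝ, HasLimitingThreshold k α → α ≤ u)) ∧
    (∀ k : ℕ, 2 ≤ k → ∀ r : ℕ → ℝ, IsThresholdSeq k r →
      (∀ ε : ℝ, 0 < ε → ∃ n0 : ℕ, ∀ n1 ≥ n0, ∀ n2 ≥ n0,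
        min (r n1) (r n2) - ε ≤ r (n1 + n2)) ∧
      (∀ ε : ℝ, 0 < ε → ∃ δ : ℝ, 0 < δ ∧ ∃ n0 : ℕ, ∀ n ≥ n0, ∀ d : ℕ, (d : ℝ) ≤ δ * n →
        r (n + d) - ε ≤ r n) ∧
      (∀ ε : ℝ, 0 < ε → ∃ T : ℕ, ∀ J : ℕ, ∃ n0 : ℕ, ∀ n ≥ n0, ∀ N : ℕ,
        T * n ≤ N → N ≤ J * n → r n - ε ≤ r N) ∧
      (∀ ν : ℕ → ℕ, StrictMono ν → ∀ ρ : ℕ, (∀ j, ν (j + 1) ≤ ρ * ν j) → ∀ α : ℝ, 0 < α →
        (HasLimitingThreshold k α ↔
          Filter.Tendsto (fun j => r (ν j)) Filter.atTop (nhds α)))) := by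
  constructor
  · intro k u h
    have key : 0 ≤ u ∧ ∀ c : ℝ, u ≤ c →
        Filter.Tendsto (fun n : ℕ => satProb k n ⌊c * n⌋₊) Filter.atTop (nhds 0) := by
      rcases h with ⟨rfl, rfl⟩ | ⟨rfl, rfl⟩ | ⟨rfl, rfl⟩
      · exact ⟨by norm_num, unsat3⟩
      · exact ⟨by norm_num, unsat4⟩
      · exact ⟨by norm_num, unsat5⟩
    exact ⟨key.2, fun r hr ε hε => eventually_le_of_unsat hr (key.2 u le_rfl) hε,
      fun α hα => limiting_le_of_unsat key.1 (key.2 u le_rfl) hα⟩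
  · intro k hk r hr
    exact ⟨fun _ hε => propA (by omega) hr hε, fun _ hε => propB (by omega) hr hε,
      scaleMono_of_thresholdSeq (by omega) hr,
      fun ν hν ρ hρ α h0 => limiting_iff_subseq (by omega) hr ν hν ρ hρ α h0⟩
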