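import Mathlib
import Vale.Agent.P170.Main

open Vale.Agent.P170 in
/-- For every sharp threshold sequence `r` of random `k`-SAT (Friedgut) and every strictly increasing
sequence `ν` of integers with bounded ratios `ν (j+1) ≤ ρ * ν j` (for instance `ν j = 2 ^ j`),
`α > 0` is a limiting threshold of random `k`-SAT if and only if `r (ν j) → α`. -/
theorem Vale.Agent.Results.P170.SubseqCriterion.result
    (k : ℕ) (hk : 2 ≤ k) (r : ℕ → ℝ) (hr : IsThresholdSeq k r)
    (ν : ℕ → ℕ) (hν : StrictMono ν) (ρ : ℕ) (hρ : ∀ j, ν (j + 1) ≤ ρ * ν j)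
    (α : ℝ) (h0 : 0 < α) :
    HasLimitingThreshold k α ↔ Filter.Tendsto (fun j => r (ν j)) Filter.atTop (nhds α) :=
  limiting_iff_subseq (by omega) hr ν hν ρ hρ α h0
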