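import Mathlib
import Vale.Agent.P170.Num3
import Vale.Agent.P170.Num4
import Vale.Agent.P170.Num5

open Vale.Agent.P170 in
/-- Upper bounds for the unsatisfiability density of random `k`-SAT, `k = 3, 4, 5`:
with `⌊c n⌋` clauses the formula is unsatisfiable with probability tending to one as soon as
`c ≥ 4.2854` (`k = 3`), `c ≥ 9.946` (`k = 4`), `c ≥ 21.126` (`k = 5`). -/
theorem Vale.Agent.Results.P170.UnsatSmallK.result :
    (∀ c : ℝ, (42854 : ℝ) / 10000 ≤ c →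
      Filter.Tendsto (fun n : ℕ => satProb 3 n ⌊c * n⌋₊) Filter.atTop (nhds 0)) ∧
    (∀ c : ℝ, (9946 : ℝ) / 1000 ≤ c →
      Filter.Tendsto (fun n : ℕ => satProb 4 n ⌊c * n⌋₊) Filter.atTop (nhds 0)) ∧
    (∀ c : ℝ, (21126 : ℝ) / 1000 ≤ c →
      Filter.Tendsto (fun n : ℕ => satProb 5 n ⌊c * n⌋₊) Filter.atTop (nhds 0)) :=
  ⟨unsat3, unsat4, unsat5⟩
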